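import Crest.Agent.WL.XShape
import Crest.Agent.WL.XDeg
import Crest.Agent.WL.XConn
import Crest.Agent.WLX.Glue
import Crest.Prelude.Def_WL

/-!
# Row 290: the graph `X S b`, numbered: simple, connected, subcubic, no isolated vertex
-/

set_option autoImplicit false

namespace Crest.Agent.WLY

open Finset Crest.Agent.WL

variable {S : Sys} {b : S.C → ZMod 2}

theorem exists_adj (p : X.V S) : ∃ q, X.adj S b p q = true := by
  obtain ⟨q, hq⟩ : ∃ q : X.V S, q ≠ p := by
    by_cases h : p.2.val = 0
    · exact ⟨(p.1, ⟨1, by omega⟩), fun h' => by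
        have := congrArg (fun x : X.V S => x.2.val) h'
        simp at this; omega⟩
    · exact ⟨(p.1, ⟨0, by omega⟩), fun h' => by
        have := congrArg (fun x : X.V S => x.2.val) h'
        simp at this; omega⟩
  rcases (X.connected b p q).cases_head with h | ⟨r, hr, -⟩
  · exact absurd h.symm hq
  · exact ⟨r, hr⟩

variable {m : ℕ} (e : Fin m ≃ X.V S) (G : Fin m → Fin m → Bool)
  (hG : ∀ u v, G u v = X.adj S b (e u) (e v))

include hG

theorem num_simple : Crest.WLRefine.IsSimple G :=
  ⟨fun u v => by rw [hG, hG, X.adj_symm], fun v => by rw [hG, X.adj_irrefl]⟩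

theorem num_exists (u : Fin m) : ∃ v, G u v = true := by
  obtain ⟨q, hq⟩ := exists_adj (b := b) (e u)
  exact ⟨e.symm q, by rw [hG, Equiv.apply_symm_apply]; exact hq⟩

theorem num_reach {p q : X.V S}
    (h : Relation.ReflTransGen (fun p q => X.adj S b p q = true) p q) :
    (Crest.WLRefine.adjGraph G).Reachable (e.symm p) (e.symm q) := by
  induction h with
  | refl => exact SimpleGraph.Reachable.refl _
  | @tail x y _ h2 ih =>
    refine ih.trans (SimpleGraph.Adj.reachable ?_)
    rw [Crest.WLRefine.adjGraph, SimpleGraph.fromRel_adj]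
    refine ⟨fun h => ?_, Or.inl ?_⟩
    · have := e.symm.injective h
      subst this
      rw [X.adj_irrefl] at h2
      exact absurd h2 (by simp)
    · rw [hG, Equiv.apply_symm_apply, Equiv.apply_symm_apply]
      exact h2

theorem num_connected (h : 0 < m) : (Crest.WLRefine.adjGraph G).Connected := by
  haveI : Nonempty (Fin m) := ⟨⟨0, h⟩⟩
  rw [SimpleGraph.connected_iff]
  refine ⟨fun u v => ?_, this⟩
  have := num_reach e G hG (X.connected b (e u) (e v))
  rwa [Equiv.symm_apply_apply, Equiv.symm_apply_apply] at this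

theorem num_subcubic (h : 0 < m) : Crest.WLRefine.SimpleConnSubcubic G := by
  refine ⟨num_simple e G hG, num_connected e G hG h, ?_⟩
  intro u
  have h1 := X.deg_le b (e u)
  refine le_trans (le_of_eq ?_) h1
  refine Finset.card_bij (fun v _ => e v) ?_ ?_ ?_
  · intro v hv
    rw [mem_filter] at hv ⊢
    exact ⟨mem_univ _, by rw [← hG]; exact hv.2⟩
  · intro a _ b _ hab; exact e.injective hab
  · intro q hq
    rw [mem_filter] at hq
    exact ⟨e.symm q, by rw [mem_filter, hG, Equiv.apply_symm_apply]; exact ⟨mem_univ _, hq.2⟩,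
      by simp⟩

omit hG in
include e in
theorem card_pos (hS : 0 < S.nC) : 0 < m := by
  have v : X.V S := (Crest.Agent.WL.V0.co (S.eC.symm ⟨0, hS⟩) (fun _ => 0) 0, ⟨0, by omega⟩)
  exact (e.symm v).pos

omit hG in
theorem shapeOK : WLX.ShapeOK := fun S b m e G hG hS => num_subcubic e G hG (card_pos e hS)

end Crest.Agent.WLY
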