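import Crest.Agent.WLX.GXDef
import Crest.Agent.WLX.UNTab
import Crest.Agent.WLX.Tup
import Mathlib.Analysis.SpecificLimits.Normed
import Mathlib.Analysis.SpecialFunctions.Pow.Real

/-!
# Row 290: estimates for the glue of the fixed dimension core
-/

set_option autoImplicit false

namespace Crest.Agent.WLY

open Finset Filter

/-- `⌊n^(1/q)⌋ - 1` -/
def rtp (q n : ℕ) : ℕ := ((range n).filter (fun i => (i + 2) ^ q ≤ n)).card

/-- `⌊n^(1/40)⌋ - 1` -/
def rt (n : ℕ) : ℕ := rtp 40 n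

theorem rt_filter (n : ℕ) :
    (range n).filter (fun i => (i + 2) ^ 40 ≤ n) = range (rt n) := by
  have hdown : ∀ i j, j ≤ i → i ∈ (range n).filter (fun i => (i + 2) ^ 40 ≤ n) →
      j ∈ (range n).filter (fun i => (i + 2) ^ 40 ≤ n) := by
    intro i j hji hi
    rw [mem_filter, mem_range] at hi ⊢
    exact ⟨by omega, (Nat.pow_le_pow_left (by omega) 40).trans hi.2⟩
  ext i
  rw [mem_range]
  constructor
  · intro hi
    have h : range (i + 1) ⊆ (range n).filter (fun i => (i + 2) ^ 40 ≤ n) := by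
      intro j hj
      rw [mem_range] at hj
      exact hdown i j (by omega) hi
    have h2 := card_le_card h
    rw [card_range] at h2
    exact h2
  · intro hi
    by_contra hc
    have h : (range n).filter (fun i => (i + 2) ^ 40 ≤ n) ⊆ range i := by
      intro j hj
      rw [mem_range]
      by_contra hji
      exact hc (hdown j i (by omega) hj)
    have h2 := card_le_card h
    rw [card_range] at h2
    exact absurd h2 (by unfold rt rtp at hi; omega)

theorem rt_le {n : ℕ} (hn : 1 ≤ n) : (rt n + 1) ^ 40 ≤ n := by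
  rcases Nat.eq_zero_or_pos (rt n) with h | h
  · rw [h]; simpa using hn
  · have h1 : rt n - 1 ∈ range (rt n) := by rw [mem_range]; omega
    rw [← rt_filter, mem_filter] at h1
    have h2 : rt n - 1 + 2 = rt n + 1 := by omega
    rw [h2] at h1
    exact h1.2

theorem lt_rt (n : ℕ) : n < (rt n + 2) ^ 40 := by
  by_contra hc
  push Not at hc
  have h1 : rt n ∈ (range n).filter (fun i => (i + 2) ^ 40 ≤ n) := by
    rw [mem_filter, mem_range]
    refine ⟨?_, hc⟩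
    have : rt n + 2 ≤ (rt n + 2) ^ 40 := Nat.le_self_pow (by norm_num) _
    omega
  rw [rt_filter, mem_range] at h1
  omega

theorem rt_large (B : ℕ) {n : ℕ} (hn : (B + 2) ^ 40 ≤ n) : B + 1 ≤ rt n := by
  by_contra hc
  push Not at hc
  have h1 := lt_rt n
  have h2 : (rt n + 2) ^ 40 ≤ (B + 2) ^ 40 := Nat.pow_le_pow_left (by omega) 40
  omega

/-- powers of the binary length are small -/
theorem size_pow (A C d : ℕ) : ∃ n₀ : ℕ, ∀ n ≥ n₀, A * (C + Nat.size n) ^ d ≤ n := by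
  have h := tendsto_pow_const_div_const_pow_of_one_lt d (r := (2 : ℝ)) (by norm_num)
  have h2 : ∀ᶠ D : ℕ in atTop, (D : ℝ) ^ d / 2 ^ D < 1 / ((A + 1 : ℕ) * 2 ^ (C + 1)) :=
    h.eventually_lt_const (by positivity)
  obtain ⟨D₀, hD₀⟩ := eventually_atTop.1 h2
  refine ⟨2 ^ D₀, fun n hn => ?_⟩
  have h3 : D₀ < Nat.size n := by
    rw [Nat.lt_size]; exact hn
  have h4 := hD₀ (C + Nat.size n) (by omega)
  have h5 : 2 ^ (Nat.size n - 1) ≤ n := by
    rw [← Nat.lt_size]; omega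
  rw [div_lt_div_iff₀ (by positivity) (by positivity), one_mul] at h4
  have h6 : (C + Nat.size n) ^ d * ((A + 1) * 2 ^ (C + 1)) < 2 ^ (C + Nat.size n) := by
    exact_mod_cast h4
  have h7 : 2 ^ (C + Nat.size n) = 2 ^ (Nat.size n - 1) * 2 ^ (C + 1) := by
    rw [← pow_add]; congr 1; omega
  rw [h7, ← mul_assoc] at h6
  have h8 := Nat.lt_of_mul_lt_mul_right h6
  calc A * (C + Nat.size n) ^ d ≤ (C + Nat.size n) ^ d * (A + 1) := by
        rw [mul_comm]; exact Nat.mul_le_mul_left _ (by omega)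
    _ ≤ 2 ^ (Nat.size n - 1) := h8.le
    _ ≤ n := h5

/-- the size estimate -/
theorem est_m (K C : ℕ) : ∃ n₀ : ℕ, ∀ n ≥ n₀,
    K * (C + Nat.size n) ^ 16 * (rt n + 1) ^ 32 + 2 ≤ n := by
  obtain ⟨n₀, hn₀⟩ := size_pow ((2 * K) ^ 5) C 80
  refine ⟨max n₀ 4, fun n hn => ?_⟩
  have hn4 : 4 ≤ n := (le_max_right _ _).trans hn
  have h1 := hn₀ n ((le_max_left _ _).trans hn)
  have h2 := rt_le (n := n) (by omega)
  generalize C + Nat.size n = s at h1 ⊢
  generalize rt n + 1 = r at h2 ⊢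
  have h3 : (2 * (K * s ^ 16 * r ^ 32)) ^ 5 ≤ n ^ 5 := by
    calc (2 * (K * s ^ 16 * r ^ 32)) ^ 5
        = ((2 * K) ^ 5 * s ^ 80) * (r ^ 40) ^ 4 := by ring
      _ ≤ n * n ^ 4 := Nat.mul_le_mul h1 (Nat.pow_le_pow_left h2 4)
      _ = n ^ 5 := by ring
  have h4 := (Nat.pow_le_pow_iff_left (by norm_num)).1 h3
  omega

theorem size_rt (n : ℕ) : Nat.size n ≤ 40 * (rt n + 2) := by
  rw [Nat.size_le]
  calc n < (rt n + 2) ^ 40 := lt_rt n
    _ ≤ (2 ^ (rt n + 2)) ^ 40 := Nat.pow_le_pow_left Nat.lt_two_pow_self.le 40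
    _ = 2 ^ (40 * (rt n + 2)) := by rw [← pow_mul, mul_comm]

/-- the time estimate -/
theorem est_t (C k N : ℕ) (hk : 6 ≤ k) (hN : k ≤ N + 2) : ∃ n₀ : ℕ, ∀ n ≥ n₀, ∀ l ≤ C + Nat.size n,
    2 + l ≤ (rt n + 1) ^ N ∧
    (n : ℝ) ^ ((1 / 160 : ℝ) * k) ≤ (((rt n + 1) ^ N - l - 2 : ℕ) : ℝ) := by
  refine ⟨(C + 100 + 2) ^ 40, fun n hn l hl => ?_⟩
  have h1 : C + 101 ≤ rt n := rt_large _ hn
  set B := rt n + 1 with hB
  have h2 : l + 2 ≤ B ^ 3 := by
    have := size_rt n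
    have h3 : l + 2 ≤ 42 * B + C := by omega
    have h4 : C ≤ B := by omega
    have h5 : 100 ≤ B := by omega
    have h6 : 100 * B ≤ B * B := Nat.mul_le_mul_right _ h5
    have h7 : B * B * 1 ≤ B * B * B := Nat.mul_le_mul_left _ (by omega)
    calc l + 2 ≤ 42 * B + C := h3
      _ ≤ 100 * B := by omega
      _ ≤ B * B := h6
      _ ≤ B * B * B := by omega
      _ = B ^ 3 := by ring
  have h3 : B ^ 3 ≤ B ^ (N - 1) := Nat.pow_le_pow_right (by omega) (by omega)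
  have h4 : B ^ N = B * B ^ (N - 1) := by
    rw [← pow_succ']; congr 1; omega
  have h5 : 2 * B ^ (N - 1) ≤ B * B ^ (N - 1) := Nat.mul_le_mul_right _ (by omega)
  have h6 : B ^ (N - 1) ≤ B ^ N - l - 2 := by omega
  refine ⟨by omega, ?_⟩
  have h7 : (n : ℝ) ≤ (B : ℝ) ^ 80 := by
    have h8 : n ≤ B ^ 80 := by
      calc n ≤ (rt n + 2) ^ 40 := (lt_rt n).le
        _ ≤ (B ^ 2) ^ 40 := Nat.pow_le_pow_left (by nlinarith) 40
        _ = B ^ 80 := by rw [← pow_mul]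
    exact_mod_cast h8
  have hB1 : (1 : ℝ) ≤ B := by
    have : 1 ≤ B := by omega
    exact_mod_cast this
  have hkN : (k : ℝ) / 2 ≤ ((N - 1 : ℕ) : ℝ) := by
    have : k ≤ 2 * (N - 1) := by omega
    have h9 : (k : ℝ) ≤ 2 * ((N - 1 : ℕ) : ℝ) := by exact_mod_cast this
    linarith
  calc (n : ℝ) ^ ((1 / 160 : ℝ) * k) ≤ ((B : ℝ) ^ 80) ^ ((1 / 160 : ℝ) * k) :=
        Real.rpow_le_rpow (Nat.cast_nonneg _) h7 (by positivity)
    _ = (B : ℝ) ^ ((k : ℝ) / 2) := by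
        rw [← Real.rpow_natCast, ← Real.rpow_mul (by positivity)]
        congr 1
        push_cast
        ring
    _ ≤ (B : ℝ) ^ (((N - 1 : ℕ) : ℝ)) := Real.rpow_le_rpow_of_exponent_le hB1 hkN
    _ = ((B ^ (N - 1) : ℕ) : ℝ) := by rw [Real.rpow_natCast]; push_cast; rfl
    _ ≤ ((B ^ N - l - 2 : ℕ) : ℝ) := by exact_mod_cast h6

end Crest.Agent.WLY
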