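import Crest.Agent.WLY.EstG
import Crest.Agent.WLY.ShapeN
import Crest.Agent.WLX.Glue
import Crest.Agent.WLH.FinSys
import Crest.Agent.WLD.DiagFinal

/-!
# Row 290: the fixed dimension core (`CoreG`, both conventions) from the finite system of a table
-/

set_option autoImplicit false

namespace Crest.Agent.WLY

open Crest.Agent.CHR Crest.CountHier Crest.Agent.WLM Crest.Agent.WLD Crest.WLRefine Crest.Agent.WL
open Crest.Agent.WLX

theorem NX_le {nC nE c Y : ℕ} (hY : 1 ≤ Y) (hC : nC ≤ c * Y) (hE : nE ≤ c * Y) :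
    GX.NX nC nE ≤ ((20 * c * c + 153 * c) * (20 * c * c + 24 * c + 9)) * Y ^ 4 := by
  have hYY : Y ≤ Y * Y := Nat.le_mul_of_pos_left _ hY
  have hCE : nC * nE ≤ c * c * (Y * Y) := by
    calc nC * nE ≤ (c * Y) * (c * Y) := Nat.mul_le_mul hC hE
      _ = c * c * (Y * Y) := by ring
  have hC' : nC ≤ c * (Y * Y) := hC.trans (Nat.mul_le_mul_left _ hYY)
  have hE' : nE ≤ c * (Y * Y) := hE.trans (Nat.mul_le_mul_left _ hYY)
  have h1 : 150 * nC + (20 * nC + 2) * nE + nE ≤ (20 * c * c + 153 * c) * (Y * Y) := by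
    calc 150 * nC + (20 * nC + 2) * nE + nE = 150 * nC + 20 * (nC * nE) + 3 * nE := by ring
      _ ≤ 150 * (c * (Y * Y)) + 20 * (c * c * (Y * Y)) + 3 * (c * (Y * Y)) := by omega
      _ = (20 * c * c + 153 * c) * (Y * Y) := by ring
  have h1Y : 1 ≤ Y * Y := hY.trans hYY
  have h2 : GX.M3 nC nE ≤ (20 * c * c + 24 * c + 9) * (Y * Y) := by
    unfold GX.M3
    calc 2 * (3 + 11 * nC + (10 * nC + 1) * nE) + 3
        = 9 + 22 * nC + 20 * (nC * nE) + 2 * nE := by ring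
      _ ≤ 9 * (Y * Y) + 22 * (c * (Y * Y)) + 20 * (c * c * (Y * Y)) + 2 * (c * (Y * Y)) := by omega
      _ = (20 * c * c + 24 * c + 9) * (Y * Y) := by ring
  calc GX.NX nC nE ≤ ((20 * c * c + 153 * c) * (Y * Y)) * ((20 * c * c + 24 * c + 9) * (Y * Y)) :=
        Nat.mul_le_mul h1 h2
    _ = ((20 * c * c + 153 * c) * (20 * c * c + 24 * c + 9)) * Y ^ 4 := by ring

/-- sizes as functions of `g = nG`, `v = nV` -/
theorem size_aux {N a X g v : ℕ} (hX : 1 ≤ X) (hG : g ≤ a * X) (hV : v ≤ a * X) {c : ℕ}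
    (hc : c = (3 * (N + 3) + 1) * (N + 1) * a * a + 3 * (N + 3) * (N + 1) * a * a +
      3 * (N + 1) * a * a + (3 * (N + 3) + 1) * N * a) :
    (3 * (N + 3) + 1) * (N + 1) * g * g ≤ c * (X * X) ∧
    3 * (N + 3) * (N + 1) * g * g + (3 * (N + 1) * v * v + (3 * (N + 3) + 1) * N * g) ≤
      c * (X * X) := by
  have hXX : X ≤ X * X := Nat.le_mul_of_pos_left _ hX
  have e0 : (3 * (N + 3) + 1) * (N + 1) * g * g ≤
      ((3 * (N + 3) + 1) * (N + 1) * a * a) * (X * X) := by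
    calc (3 * (N + 3) + 1) * (N + 1) * g * g
        ≤ (3 * (N + 3) + 1) * (N + 1) * (a * X) * (a * X) :=
          Nat.mul_le_mul (Nat.mul_le_mul_left _ hG) hG
      _ = ((3 * (N + 3) + 1) * (N + 1) * a * a) * (X * X) := by ring
  have e1 : 3 * (N + 3) * (N + 1) * g * g ≤ (3 * (N + 3) * (N + 1) * a * a) * (X * X) := by
    calc _ ≤ 3 * (N + 3) * (N + 1) * (a * X) * (a * X) :=
          Nat.mul_le_mul (Nat.mul_le_mul_left _ hG) hG
      _ = _ := by ring
  have e2 : 3 * (N + 1) * v * v ≤ (3 * (N + 1) * a * a) * (X * X) := by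
    calc _ ≤ 3 * (N + 1) * (a * X) * (a * X) :=
          Nat.mul_le_mul (Nat.mul_le_mul_left _ hV) hV
      _ = _ := by ring
  have e3 : (3 * (N + 3) + 1) * N * g ≤ ((3 * (N + 3) + 1) * N * a) * (X * X) := by
    calc _ ≤ (3 * (N + 3) + 1) * N * (a * (X * X)) :=
          Nat.mul_le_mul_left _ (hG.trans (Nat.mul_le_mul_left _ hXX))
      _ = _ := by ring
  have hcX : c * (X * X) = (3 * (N + 3) + 1) * (N + 1) * a * a * (X * X) +
      3 * (N + 3) * (N + 1) * a * a * (X * X) + 3 * (N + 1) * a * a * (X * X) +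
      (3 * (N + 3) + 1) * N * a * (X * X) := by
    rw [hc, Nat.add_mul _ _ (X * X), Nat.add_mul _ _ (X * X), Nat.add_mul _ _ (X * X)]
  rw [hcX]
  clear hcX hc
  clear hXX hG hV
  generalize (3 * (N + 3) + 1) * (N + 1) * a * a * (X * X) = A0 at *
  generalize 3 * (N + 3) * (N + 1) * a * a * (X * X) = A1 at *
  generalize 3 * (N + 1) * a * a * (X * X) = A2 at *
  generalize (3 * (N + 3) + 1) * N * a * (X * X) = A3 at *
  generalize (3 * (N + 3) + 1) * (N + 1) * g * g = B0 at *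
  generalize 3 * (N + 3) * (N + 1) * g * g = B1 at *
  generalize 3 * (N + 1) * v * v = B2 at *
  generalize (3 * (N + 3) + 1) * N * g = B3 at *
  omega

theorem gv_aux {N l B : ℕ} (hl : 1 ≤ l) (hB : 1 ≤ B) :
    14 * l * l * N * 9 * B * B * B * B + 3 ≤ (126 * N + 11) * (l ^ 2 * B ^ 4) ∧
    6 * l * B * B + (14 * l * l * N * 3 * B * B * B * B + 2) ≤
      (126 * N + 11) * (l ^ 2 * B ^ 4) := by
  have hX : 1 ≤ l ^ 2 * B ^ 4 := Nat.mul_pos (by positivity) (by positivity)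
  have h1 : 6 * l * B * B ≤ 6 * (l ^ 2 * B ^ 4) := by
    have h2 : l ≤ l ^ 2 := Nat.le_self_pow (by norm_num) _
    have h3 : B ^ 2 ≤ B ^ 4 := Nat.pow_le_pow_right hB (by norm_num)
    calc 6 * l * B * B = 6 * (l * B ^ 2) := by ring
      _ ≤ 6 * (l ^ 2 * B ^ 4) := Nat.mul_le_mul_left _ (Nat.mul_le_mul h2 h3)
  have h4 : 14 * l * l * N * 9 * B * B * B * B = 126 * (N * (l ^ 2 * B ^ 4)) := by ring
  have h5 : 14 * l * l * N * 3 * B * B * B * B = 42 * (N * (l ^ 2 * B ^ 4)) := by ring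
  have h6 : (126 * N + 11) * (l ^ 2 * B ^ 4) =
    126 * (N * (l ^ 2 * B ^ 4)) + 11 * (l ^ 2 * B ^ 4) := by ring
  rw [h4, h5, h6]
  generalize l ^ 2 * B ^ 4 = X at *
  generalize N * X = Y at *
  omega

theorem bsys_size (N : ℕ) : ∃ K : ℕ, ∀ (T : Tab) (b : ℕ),
    GX.NX (WLH.bsys T N b).nC (WLH.bsys T N b).nE ≤ K * (T.length + 6) ^ 16 * (b + 1) ^ 32 := by
  obtain ⟨a, ha⟩ : ∃ a, a = 126 * N + 11 := ⟨_, rfl⟩
  obtain ⟨c, hc⟩ : ∃ c, c = (3 * (N + 3) + 1) * (N + 1) * a * a +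
    3 * (N + 3) * (N + 1) * a * a + 3 * (N + 1) * a * a + (3 * (N + 3) + 1) * N * a := ⟨_, rfl⟩
  refine ⟨(20 * c * c + 153 * c) * (20 * c * c + 24 * c + 9), fun T b => ?_⟩
  have hgv := gv_aux (N := N) (l := T.length + 6) (B := b + 1) (by omega) (by omega)
  rw [← ha] at hgv
  obtain ⟨hG, hV⟩ := hgv
  have hX : 1 ≤ (T.length + 6) ^ 2 * (b + 1) ^ 4 := Nat.mul_pos (by positivity) (by positivity)
  obtain ⟨h1, h2⟩ := size_aux (N := N) (g := WLH.nG T.length N b) (v := WLH.nV T.length N b)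
    hX hG hV hc
  generalize T.length + 6 = l at hX h1 h2 ⊢
  generalize b + 1 = B at hX h1 h2 ⊢
  have hXX : 1 ≤ (l ^ 2 * B ^ 4) * (l ^ 2 * B ^ 4) := Nat.mul_pos hX hX
  have h3 := NX_le hXX h1 h2
  refine le_trans h3 (le_of_eq ?_)
  generalize (20 * c * c + 153 * c) * (20 * c * c + 24 * c + 9) = K
  ring

theorem bsys_pos (T : Tab) (N b : ℕ) : 0 < (WLH.bsys T N b).nC := by
  show 0 < (3 * (N + 3) + 1) * (N + 1) * WLH.nG T.length N b * WLH.nG T.length N b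
  have : 0 < WLH.nG T.length N b := by unfold WLH.nG; omega
  positivity

theorem UN_rtp (q : ℕ) {f : W → ℕ} (hf : UN f) : UN (fun w => rtp q (f w)) := by
  have h0 : UN (fun z : W => ((sndB z).length + 2) ^ q) := UN.powC (UN.add UN.var (UN.const 2)) q
  have hp : UP (fun z : W => ((sndB z).length + 2) ^ q ≤ f (fstB z)) := UP.le h0 hf.fst
  have h := UN.card (P := fun w i => (i + 2) ^ q ≤ f w) hf hp
  refine h.congr fun w => ?_
  unfold rtp
  congr 1
  ext i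
  simp

theorem UN_rt {f : W → ℕ} (hf : UN f) : UN (fun w => rt (f w)) := UN_rtp 40 hf

/-- the length of the input of the diagonal machine -/
theorem dz_len (tc : Tab → W) (T : Tab) (k c₀ : ℕ) :
    ∃ C : ℕ, ∀ n, (dz tc T k c₀ n).length ≤ C + Nat.size n := by
  refine ⟨2 * (pairBits (tc T) (pairBits (un k) (un c₀))).length + 1, fun n => ?_⟩
  unfold dz pn
  rw [pairBits_length', Nat.size_eq_bits_len]

/-- the core of a convention `E` with shift `σ` -/
theorem coreG_of {E : (k : ℕ) → {n : ℕ} → (Fin n → Fin n → Bool) → (Fin n → Fin n → Bool) → Prop}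
    {σ : ℕ} (hσ : σ ≤ 2) (hUP : SysUP WLH.bsys WLH.btw)
    (hE : ∀ (T : Tab), T.Ok → ∀ N b : ℕ, 1 ≤ N → ∀ (m : ℕ) (G H : Fin m → Fin m → Bool)
      (e : Fin m ≃ X.V (WLH.bsys T N b)),
      (∀ u v, G u v = X.adj (WLH.bsys T N b) (fun _ => 0) (e u) (e v)) →
      (∀ u v, H u v = X.adj (WLH.bsys T N b) (WLH.btw T N b) (e u) (e v)) →
        (E (N + σ) G H ↔ ∀ t, t + 1 < (b + 1) ^ N → ¬ T.Acc [] t)) : CoreG E := by
  have hk : UN (fun w => (fstB (sndB (fstB (fstB w)))).length) :=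
    UN.len (CHR.PT.comp CHR.PT.fst (CHR.PT.comp CHR.PT.snd (CHR.PT.comp CHR.PT.fst CHR.PT.fst)))
  obtain ⟨m, A, A', hm, hA, hA', h⟩ := graphs_of_sys hUP (zf := fun w => fstB w)
    (cf := fun w => fstB (fstB (fstB w)))
    (N := fun w => (fstB (sndB (fstB (fstB w)))).length - σ)
    (b := fun w => rt (sndB w).length) CHR.PT.fst
    (CHR.PT.comp CHR.PT.fst (CHR.PT.comp CHR.PT.fst CHR.PT.fst)) (hk.sub (UN.const σ))
    (UN_rt UN.var)
  refine ⟨1 / 160, 6, tc, m, A, A', by norm_num, hm, hA, hA', fun k hk T hT c₀ => ?_⟩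
  obtain ⟨C, hC⟩ := dz_len tc T k c₀
  obtain ⟨K, hK⟩ := bsys_size (k - σ)
  obtain ⟨n₁, hn₁⟩ := est_m K (T.length + C + 6)
  obtain ⟨n₂, hn₂⟩ := est_t C k (k - σ) hk (by omega)
  refine ⟨max n₁ n₂, fun n hn z w hz hw => ?_⟩
  have e1 : fstB w = z := by rw [hw]; simp
  have e2 : (sndB w).length = n := by rw [hw]; simp
  have e3 : fstB z = pairBits (tc T) (pairBits (un k) (un c₀)) := by rw [hz]; unfold dz pn; simp
  have e4 : fstB (fstB (fstB w)) = tc T := by rw [e1, e3]; simp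
  have e5 : (fstB (sndB (fstB (fstB w)))).length = k := by rw [e1, e3]; simp
  have hN1 : 1 ≤ k - σ := by omega
  have hh := h w T hT e4 (by rw [e5]; exact hN1)
  rw [e5, e1, e2] at hh
  obtain ⟨hmw, e, he, he'⟩ := hh
  have hTz : (WLH.inpT z T).Ok := WLH.inpT_ok hT
  have hzl : z.length ≤ C + Nat.size n := by rw [hz]; exact hC n
  have hpos := card_pos e (bsys_pos _ _ _)
  obtain ⟨h1, h2⟩ := hn₂ n ((le_max_right _ _).trans hn) z.length hzl
  refine ⟨?_, hpos, num_simple e _ he, num_simple e _ he', num_exists e _ he, num_exists e _ he',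
    (rt n + 1) ^ (k - σ) - z.length - 2, h2, ?_⟩
  · refine le_trans (Nat.add_le_add_right ?_ 2) (hn₁ n ((le_max_left _ _).trans hn))
    rw [hmw]
    refine (hK (WLH.inpT z T) (rt n)).trans ?_
    refine Nat.mul_le_mul_right _ (Nat.mul_le_mul_left _ (Nat.pow_le_pow_left ?_ 16))
    rw [WLH.inpT_length]
    omega
  · have h3 := hE (WLH.inpT z T) hTz (k - σ) (rt n) hN1 (m w) _ _ e he he'
    rw [show k - σ + σ = k by omega] at h3
    rw [h3]
    exact not_acc_iff hT z h1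

theorem coreG_J (hUP : SysUP WLH.bsys WLH.btw) (hJ : SysEqJ WLH.bsys WLH.btw) :
    CoreG (fun k _ G H => JEquiv k G H) :=
  coreG_of (σ := 1) (by norm_num) hUP hJ

theorem coreG_S (hUP : SysUP WLH.bsys WLH.btw) (hS : SysEqS WLH.bsys WLH.btw) :
    CoreG (fun k _ G H => SEquiv k G H) :=
  coreG_of (σ := 2) (by norm_num) hUP hS

theorem coreJ (hUP : SysUP WLH.bsys WLH.btw) (hJ : SysEqJ WLH.bsys WLH.btw) :
    Core (fun k _ G H => JEquiv k G H) := coreJ_of (coreG_J hUP hJ)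

theorem coreS (hUP : SysUP WLH.bsys WLH.btw) (hS : SysEqS WLH.bsys WLH.btw) :
    Core (fun k _ G H => SEquiv k G H) := coreS_of (coreG_S hUP hS)

theorem coreSub (hUP : SysUP WLH.bsys WLH.btw) (hJ : SysEqJ WLH.bsys WLH.btw) : CoreSub :=
  coreSub_of hUP hJ shapeOK fun T _ N b _ => bsys_pos T N b

end Crest.Agent.WLY
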